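import Mathlib

/-!
P199: division rings algebraic over a central subfield, generated by finitely many elements with
commutation relations of Lie, quantum or Clifford type, are finite dimensional.
-/

namespace Vale.Agent.Results.P199.LieTypeGenerators

open Submodule

variable {k D ι : Type*} [Field k] [Ring D] [Algebra k D]

lemma pow_mono' (W : Submodule k D) (h1 : (1 : Submodule k D) ≤ W) {m n : ℕ} (h : m ≤ n) :
    W ^ m ≤ W ^ n := by
  obtain ⟨j, rfl⟩ := Nat.exists_eq_add_of_le h
  induction j with
  | zero => simp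
  | succ j ih =>
    refine (ih (by omega)).trans ?_
    rw [← add_assoc, pow_succ W (m + j)]
    calc W ^ (m + j) = W ^ (m + j) * 1 := (mul_one _).symm
      _ ≤ W ^ (m + j) * W := mul_le_mul' le_rfl h1

lemma perm_mem (y : ι → D) (W : Submodule k D) (hy : ∀ i, y i ∈ W)
    (hc : ∀ i j, ∃ q : k, y i * y j - q • (y j * y i) ∈ W) {L L' : List ι} (h : L.Perm L') :
    ∃ c : k, (L.map y).prod - c • (L'.map y).prod ∈ W ^ (L.length - 1) := by
  have hprod : ∀ l : List ι, (l.map y).prod ∈ W ^ l.length := by
    intro l
    induction l with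
    | nil => simp [Submodule.one_le.1 le_rfl]
    | cons a l ih =>
      rw [List.map_cons, List.prod_cons, List.length_cons, pow_succ']
      exact Submodule.mul_mem_mul (hy a) ih
  induction h with
  | nil => exact ⟨1, by simp⟩
  | @cons x l l' hp ih =>
    obtain ⟨c, hc'⟩ := ih
    rcases l with _ | ⟨a, l⟩
    · have : l' = [] := hp.nil_eq.symm
      subst this
      exact ⟨1, by simp⟩
    · refine ⟨c, ?_⟩
      rw [List.map_cons, List.prod_cons, List.map_cons (l := l'), List.prod_cons]
      have e : y x * ((a :: l).map y).prod - c • (y x * (l'.map y).prod) =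
          y x * (((a :: l).map y).prod - c • (l'.map y).prod) := by
        rw [mul_sub, mul_smul_comm]
      rw [e]
      have e2 : (x :: a :: l).length - 1 = ((a :: l).length - 1) + 1 := by simp
      rw [e2, pow_succ']
      exact Submodule.mul_mem_mul (hy x) hc'
  | swap x z l =>
    obtain ⟨q, hq⟩ := hc z x
    refine ⟨q, ?_⟩
    simp only [List.map_cons, List.prod_cons]
    have e : y z * (y x * (l.map y).prod) - q • (y x * (y z * (l.map y).prod)) =
        (y z * y x - q • (y x * y z)) * (l.map y).prod := by
      rw [sub_mul, smul_mul_assoc, mul_assoc, mul_assoc]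
    rw [e]
    have e2 : (z :: x :: l).length - 1 = l.length + 1 := by simp
    rw [e2, pow_succ']
    exact Submodule.mul_mem_mul hq (hprod l)
  | @trans a b c h1 h2 ih1 ih2 =>
    obtain ⟨c1, hc1⟩ := ih1
    obtain ⟨c2, hc2⟩ := ih2
    refine ⟨c1 * c2, ?_⟩
    have e : (a.map y).prod - (c1 * c2) • (c.map y).prod =
        ((a.map y).prod - c1 • (b.map y).prod) +
          c1 • ((b.map y).prod - c2 • (c.map y).prod) := by
      rw [smul_sub, smul_smul]
      abel
    rw [e]
    refine Submodule.add_mem _ hc1 (Submodule.smul_mem _ _ ?_)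
    rw [h1.length_eq]
    exact hc2

lemma finite_of_pow [Fintype ι] (y : ι → D) (W : Submodule k D) (hW : W = span k (Set.range y))
    (h1 : (1 : Submodule k D) ≤ W)
    (hc : ∀ i j, ∃ q : k, y i * y j - q • (y j * y i) ∈ W) (d : ℕ) (hd : 1 ≤ d)
    (hp : ∀ i, y i ^ d ∈ W ^ (d - 1)) :
    Module.Finite k (Algebra.adjoin k (Set.range y)) := by
  classical
  have hy : ∀ i, y i ∈ W := fun i => hW ▸ subset_span ⟨i, rfl⟩
  have hprod : ∀ l : List ι, (l.map y).prod ∈ W ^ l.length := by
    intro l
    induction l with
    | nil => simp [Submodule.one_le.1 le_rfl]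
    | cons a l ih =>
      rw [List.map_cons, List.prod_cons, List.length_cons, pow_succ']
      exact Submodule.mul_mem_mul (hy a) ih
  set N : ℕ := Fintype.card ι * d + 1 with hN
  have key : W ^ (N + 1) ≤ W ^ N := by
    conv_lhs => rw [hW, Submodule.span_pow]
    rw [Submodule.span_le]
    intro a ha
    rw [Set.mem_pow] at ha
    obtain ⟨f, rfl⟩ := ha
    choose g hg using fun i => (f i).2
    have e0 : (List.ofFn fun i => ((f i : Set.range y) : D)) = (List.ofFn g).map y := by
      rw [List.map_ofFn]
      congr 1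
      funext i
      exact (hg i).symm
    rw [e0]
    set L := List.ofFn g with hL
    have hlen : L.length = N + 1 := by rw [hL, List.length_ofFn]
    obtain ⟨i, hi⟩ : ∃ i, d ≤ L.count i := by
      by_contra hcon
      push Not at hcon
      have h2 : ∑ i : ι, (L : Multiset ι).count i = Multiset.card (L : Multiset ι) :=
        Multiset.sum_count_eq_card (fun a _ => Finset.mem_univ a)
      simp only [Multiset.coe_count, Multiset.coe_card] at h2
      have h3 : ∑ i : ι, L.count i ≤ ∑ _i : ι, d := Finset.sum_le_sum (fun i _ => (hcon i).le)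
      rw [Finset.sum_const, Finset.card_univ, smul_eq_mul] at h3
      omega
    obtain ⟨l, hl⟩ := (List.replicate_sublist_iff.2 hi).exists_perm_append
    obtain ⟨c, hcc⟩ := perm_mem y W hy hc hl
    have hlen2 : d + l.length = N + 1 := by
      have := hl.length_eq
      rw [List.length_append, List.length_replicate, hlen] at this
      exact this.symm
    have h4 : ((List.replicate d i ++ l).map y).prod ∈ W ^ N := by
      rw [List.map_append, List.prod_append, List.map_replicate, List.prod_replicate]
      have e : N = (d - 1) + l.length := by omega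
      rw [e, pow_add]
      exact Submodule.mul_mem_mul (hp i) (hprod l)
    rw [hlen] at hcc
    have h5 := Submodule.add_mem _ hcc (Submodule.smul_mem _ c h4)
    simpa using h5
  have key2 : ∀ j, W ^ (N + j) ≤ W ^ N := by
    intro j
    induction j with
    | zero => simp
    | succ j ih =>
      calc W ^ (N + (j + 1)) = W ^ (N + j) * W := by rw [← add_assoc, pow_succ]
        _ ≤ W ^ N * W := mul_le_mul' ih le_rfl
        _ = W ^ (N + 1) := (pow_succ W N).symm
        _ ≤ W ^ N := key
  let A : Subalgebra k D := Submodule.toSubalgebra (W ^ N)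
    (pow_mono' W h1 (Nat.zero_le N) (by rw [pow_zero]; exact Submodule.one_le.1 le_rfl))
    (fun a b ha hb => key2 N (by rw [pow_add]; exact Submodule.mul_mem_mul ha hb))
  have hA : Algebra.adjoin k (Set.range y) ≤ A := by
    refine Algebra.adjoin_le ?_
    rintro _ ⟨i, rfl⟩
    have h6 : y i ∈ W ^ 1 := by rw [pow_one]; exact hy i
    exact pow_mono' W h1 (by omega : 1 ≤ N) h6
  have hfg : (W ^ N).FG := by
    refine Submodule.FG.pow ?_ N
    rw [hW]
    exact Submodule.fg_span (Set.finite_range y)
  have hfin : FiniteDimensional k (W ^ N : Submodule k D) := Module.Finite.iff_fg.2 hfg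
  have hle : Subalgebra.toSubmodule (Algebra.adjoin k (Set.range y)) ≤ W ^ N := fun a ha => hA ha
  have h7 : FiniteDimensional k (Subalgebra.toSubmodule (Algebra.adjoin k (Set.range y))) :=
    Submodule.finiteDimensional_of_le hle
  exact h7

theorem result (k D : Type*) [Field k] [Ring D] [Algebra k D] (S : Set D) (hS : S.Finite)
    (halg : ∀ v ∈ S, IsAlgebraic k v)
    (hc : ∀ v ∈ S, ∀ w ∈ S, ∃ q : k, v * w - q • (w * v) ∈ Submodule.span k (insert 1 S)) :
    Module.Finite k (Algebra.adjoin k S) := by
  classical
  have hT : (insert (1 : D) S).Finite := hS.insert 1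
  have : Fintype (insert (1 : D) S : Set D) := hT.fintype
  let y : (insert (1 : D) S : Set D) → D := fun i => i
  have hr : Set.range y = insert (1 : D) S := Subtype.range_coe
  set W := span k (Set.range y) with hW
  have hone : (1 : D) ∈ W := subset_span (by rw [hr]; exact Set.mem_insert _ _)
  have h1 : (1 : Submodule k D) ≤ W := Submodule.one_le.2 hone
  have hy : ∀ i, y i ∈ W := fun i => subset_span ⟨i, rfl⟩
  have hpow : ∀ i n, y i ^ n ∈ W ^ n := fun i n => Submodule.pow_mem_pow W (hy i) n
  have hall : ∀ i : (insert (1 : D) S : Set D), IsAlgebraic k (y i) := by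
    rintro ⟨v, hv⟩
    rcases hv with rfl | hv
    · exact isAlgebraic_one
    · exact halg v hv
  have hdeg : ∀ i : (insert (1 : D) S : Set D), ∃ n : ℕ, 1 ≤ n ∧ y i ^ n ∈ W ^ (n - 1) := by
    intro i
    have hint : IsIntegral k (y i) := (hall i).isIntegral
    obtain ⟨p, hpm, hp⟩ := hint
    refine ⟨p.natDegree + 1, by omega, ?_⟩
    have h2 : Polynomial.aeval (y i) p = 0 := hp
    have h3 := congrArg (Polynomial.aeval (y i)) hpm.as_sum
    rw [h2, map_add, map_pow, Polynomial.aeval_X, map_sum] at h3
    have h4 : y i ^ p.natDegree = -∑ j ∈ Finset.range p.natDegree,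
        Polynomial.aeval (y i) (Polynomial.C (p.coeff j) * Polynomial.X ^ j) :=
      eq_neg_of_add_eq_zero_left h3.symm
    rw [pow_succ, h4, neg_mul, Finset.sum_mul, Nat.add_sub_cancel]
    refine Submodule.neg_mem _ (Submodule.sum_mem _ (fun j hj => ?_))
    rw [map_mul, Polynomial.aeval_C, map_pow, Polynomial.aeval_X, mul_assoc, ← pow_succ,
      ← Algebra.smul_def]
    exact Submodule.smul_mem _ _ (pow_mono' W h1 (Finset.mem_range.1 hj) (hpow i (j + 1)))
  choose n hn1 hn2 using hdeg
  have hd : ∀ i, n i ≤ (∑ j, n j) + 1 := fun i =>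
    (Finset.single_le_sum (fun j _ => Nat.zero_le (n j)) (Finset.mem_univ i)).trans (Nat.le_succ _)
  have hfin := finite_of_pow y W hW h1 (fun i j => by
      obtain ⟨v, hv⟩ := i
      obtain ⟨w, hw⟩ := j
      show ∃ q : k, v * w - q • (w * v) ∈ W
      rcases hv with rfl | hv
      · exact ⟨1, by simp⟩
      · rcases hw with rfl | hw
        · exact ⟨1, by simp⟩
        · rw [hW, hr]; exact hc v hv w hw) ((∑ j, n j) + 1) (by omega) (fun i => by
      have e : y i ^ ((∑ j, n j) + 1) = y i ^ ((∑ j, n j) + 1 - n i) * y i ^ n i := by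
        rw [← pow_add]; congr 1; have := hd i; omega
      have e2 : (∑ j, n j) + 1 - 1 = ((∑ j, n j) + 1 - n i) + (n i - 1) := by
        have := hd i; have := hn1 i; omega
      rw [e, e2, pow_add]
      exact Submodule.mul_mem_mul (hpow i _) (hn2 i))
  rw [hr] at hfin
  have hle : Algebra.adjoin k S ≤ Algebra.adjoin k (insert (1 : D) S) :=
    Algebra.adjoin_mono (Set.subset_insert _ _)
  have h8 : FiniteDimensional k (Subalgebra.toSubmodule (Algebra.adjoin k (insert (1 : D) S))) :=
    hfin
  have hle2 : Subalgebra.toSubmodule (Algebra.adjoin k S) ≤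
      Subalgebra.toSubmodule (Algebra.adjoin k (insert (1 : D) S)) := fun a ha => hle ha
  have h9 : FiniteDimensional k (Subalgebra.toSubmodule (Algebra.adjoin k S)) :=
    Submodule.finiteDimensional_of_le hle2
  exact h9

end Vale.Agent.Results.P199.LieTypeGenerators
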